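import Mathlib
import Vale.Agent.Lib.P002.Closed.Main

namespace Vale.Agent.Results.P002.A_closed_surface_all_rank

open Vale.Agent.Lib.P002.Surf

/-- Closed surfaces of genus `g ≥ 2`, all ranks `r ≥ 2`. There is a number field `L` and a rational
family `χ` of representations of the surface group, with parameters in an open subset `D ≠ 0` of a
torus of dimension `(2g - 2)(r² - 1)`, such that every member is an irreducible representation, the
family has finite fibres modulo simultaneous conjugation, and every polynomial in the matrix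
entries vanishing on all representations with entries in the ring of integers of `L` vanishes on
the family. -/
theorem result (r g : ℕ) (hr : 2 ≤ r) (hg : 2 ≤ g) :
    ∃ L : IntermediateField ℚ ℂ, FiniteDimensional ℚ L ∧
      ∃ (D : MvPolynomial (Fin ((2 * g - 2) * (r ^ 2 - 1))) ℂ)
        (χ : (Fin ((2 * g - 2) * (r ^ 2 - 1)) → ℂˣ) → RepData r g 0),
        D ≠ 0 ∧
        (∀ p : Var r g 0, ∃ (P : MvPolynomial (Fin ((2 * g - 2) * (r ^ 2 - 1))) ℂ) (e : ℕ),
          ∀ t, MvPolynomial.eval (fun i => ((t i : ℂˣ) : ℂ)) D ≠ 0 →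
            point (χ t) p * (MvPolynomial.eval (fun i => ((t i : ℂˣ) : ℂ)) D) ^ e =
              MvPolynomial.eval (fun i => ((t i : ℂˣ) : ℂ)) P) ∧
        (∀ t, MvPolynomial.eval (fun i => ((t i : ℂˣ) : ℂ)) D ≠ 0 →
          SurfaceRelation (χ t) ∧ IsIrreducibleRep (χ t)) ∧
        (∀ ρ : RepData r g 0,
          {t | MvPolynomial.eval (fun i => ((t i : ℂˣ) : ℂ)) D ≠ 0 ∧ ConjEquivalent ρ (χ t)}.Finite) ∧
        ∀ f : MvPolynomial (Var r g 0) ℂ,
          (∀ ρ : RepData r g 0, SurfaceRelation ρ → IsOLPoint L ρ →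
            MvPolynomial.aeval (point ρ) f = 0) →
          ∀ t, MvPolynomial.eval (fun i => ((t i : ℂˣ) : ℂ)) D ≠ 0 →
            MvPolynomial.aeval (point (χ t)) f = 0 := by
  obtain ⟨n, rfl⟩ : ∃ n, r = n + 2 := ⟨r - 2, by omega⟩
  obtain ⟨b, s, rfl, hs, hb⟩ : ∃ b s, g = 2 * b + s ∧ s ≤ 1 ∧ 1 ≤ b :=
    ⟨g / 2, g % 2, (Nat.div_add_mod g 2).symm, by omega, by omega⟩
  exact closed_main (n := n) (by simp only [mm]; omega) hs hb

end Vale.Agent.Results.P002.A_closed_surface_all_rank
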