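import Mathlib
import Vale.Agent.Lib.P002.Closed.NonRes

namespace Vale.Agent.Results.P002.A_punctured_all_rank

open Vale.Agent.Lib.P002.Surf

/-- Punctured surfaces, all ranks, regular semisimple boundary classes with algebraic integer
eigenvalues: a Laurent family of the expected dimension inside the representations with the given
boundary classes, injective modulo conjugation, in the Zariski closure of the integral points over
a number field; for non-resonant eigenvalues all these representations are irreducible. -/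
theorem result (r g s : ℕ) (hr : 2 ≤ r) (hs : 1 ≤ s) (hgs : 3 ≤ 2 * g + s)
    (a : Fin s → Fin r → ℂ) (hai : ∀ j i, IsIntegral ℤ (a j i)) (hp : ∀ j, ∏ i, a j i = 1)
    (hinj : ∀ j, Function.Injective (a j)) :
    ∃ L : IntermediateField ℚ ℂ, FiniteDimensional ℚ L ∧
      ∃ χ : (Fin ((r - 1) * ((2 * g + s - 2) * r + 2 * g - 2)) → ℂˣ) → RepData r g s,
        IsLaurentMap χ ∧ (∀ t, χ t ∈ RelRep a) ∧
        (∀ t t', ConjEquivalent (χ t) (χ t') → t = t') ∧
        (NonResonant a → ∀ ρ ∈ RelRep (g := g) a, IsIrreducibleRep ρ) ∧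
        ∀ f : MvPolynomial (Var r g s) ℂ,
          (∀ ρ ∈ RelRep (g := g) a, IsOLPoint L ρ → MvPolynomial.aeval (point ρ) f = 0) →
          ∀ t, MvPolynomial.aeval (point (χ t)) f = 0 := by
  obtain ⟨n, rfl⟩ : ∃ n, r = n + 2 := ⟨r - 2, by omega⟩
  obtain ⟨s', rfl⟩ : ∃ s', s = s' + 1 := ⟨s - 1, by omega⟩
  obtain ⟨L, hL, χ, h1, h2, h3, h4⟩ := main_chart a hai hp hinj (g := g) (by simp only [mm]; omega)
  exact ⟨L, hL, χ, h1, h2, h3, fun ha ρ hρ => irreducible_of_nonResonant a ha ρ hρ, h4⟩

end Vale.Agent.Results.P002.A_punctured_all_rank
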