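import Mathlib
import Vale.Agent.Lib.P002.Reg.Main

namespace Vale.Agent.Results.P002.A_regular_all_rank

open Vale.Agent.Lib.P002.Surf

/-- Surfaces of genus at least one with at least two punctures, and spheres with at least four
punctures, all ranks, all regular boundary classes with algebraic integer eigenvalues (equal
eigenvalues allowed): a rational family of the expected dimension of irreducible representations
with the given boundary classes, injective modulo conjugation, in the Zariski closure of the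
irreducible integral points over a number field. -/
theorem result (r g s : ℕ) (hr : 2 ≤ r) (hgs : (1 ≤ g ∧ 2 ≤ s) ∨ (g = 0 ∧ 4 ≤ s))
    (a : Fin s → Fin r → ℂ)
    (hai : ∀ j i, IsIntegral ℤ (a j i)) (hp : ∀ j, ∏ i, a j i = 1) :
    ∃ L : IntermediateField ℚ ℂ, FiniteDimensional ℚ L ∧
      ∃ (D : MvPolynomial (Fin ((r - 1) * ((2 * g + s - 2) * r + 2 * g - 2))) ℂ)
        (χ : (Fin ((r - 1) * ((2 * g + s - 2) * r + 2 * g - 2)) → ℂˣ) → RepData r g s),
        D ≠ 0 ∧ IsLaurentMap χ ∧
        (∀ t, MvPolynomial.eval (fun i => ((t i : ℂˣ) : ℂ)) D ≠ 0 →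
          χ t ∈ RelReg a ∧ IsIrreducibleRep (χ t)) ∧
        (∀ t t', MvPolynomial.eval (fun i => ((t i : ℂˣ) : ℂ)) D ≠ 0 →
          MvPolynomial.eval (fun i => ((t' i : ℂˣ) : ℂ)) D ≠ 0 →
          ConjEquivalent (χ t) (χ t') → t = t') ∧
        ∀ f : MvPolynomial (Var r g s) ℂ,
          (∀ ρ ∈ RelReg (g := g) a, IsIrreducibleRep ρ → IsOLPoint L ρ →
            MvPolynomial.aeval (point ρ) f = 0) →
          ∀ t, MvPolynomial.eval (fun i => ((t i : ℂˣ) : ℂ)) D ≠ 0 →
            MvPolynomial.aeval (point (χ t)) f = 0 :=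
  reg_main r g s hr hgs a hai hp

end Vale.Agent.Results.P002.A_regular_all_rank
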