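import Mathlib
import Vale.Agent.Lib.P002.Defs
import Vale.Agent.Lib.P002.Final

namespace Vale.Agent.Results.P002.A_sl3_three_punctures

open Vale.Agent.Lib.P002

theorem result (a b c : Fin 3 → ℂ)
    (hai : ∀ i, IsIntegral ℤ (a i)) (hbi : ∀ i, IsIntegral ℤ (b i)) (hci : ∀ i, IsIntegral ℤ (c i))
    (ha1 : a 0 * a 1 * a 2 = 1) (hb1 : b 0 * b 1 * b 2 = 1) (hc1 : c 0 * c 1 * c 2 = 1)
    (hainj : Function.Injective a) (hbinj : Function.Injective b) (hcinj : Function.Injective c) :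
    ∃ L : IntermediateField ℚ ℂ, FiniteDimensional ℚ L ∧
      (∀ f : MvPolynomial Var ℂ, IsConjInvariant f →
        (∀ ρ ∈ relativeCharacterSet a b c, IsIntegralPoint L ρ →
          MvPolynomial.aeval (point ρ.1 ρ.2) f = 0) →
        ∀ ρ ∈ relativeCharacterSet a b c, MvPolynomial.aeval (point ρ.1 ρ.2) f = 0) ∧
      (∀ P : Polynomial (Polynomial ℂ),
        (∀ ρ ∈ relativeCharacterSet a b c, IsIntegralPoint L ρ →
          Polynomial.evalEval
            (Matrix.trace ((ρ.1 * ρ.2⁻¹ : SL3) : Matrix (Fin 3) (Fin 3) ℂ))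
            (Matrix.trace ((ρ.1⁻¹ * ρ.2 : SL3) : Matrix (Fin 3) (Fin 3) ℂ)) P = 0) →
        P = 0) :=
  density_main a b c hai hbi hci ha1 hb1 hc1 hainj hbinj hcinj

end Vale.Agent.Results.P002.A_sl3_three_punctures
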